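import Vale.Agent.P227.Fin

namespace Vale.Agent.Results.P227.Main

open MeasureTheory Vale.Agent.P227

theorem result : ∀ n : ℕ, 2 ≤ n → ∀ K L : Set (EuclideanSpace ℝ (Fin n)),
    IsCompact K → Convex ℝ K → (interior K).Nonempty → K = -K →
    IsCompact L → Convex ℝ L → (interior L).Nonempty → L = -L →
    ∀ l : ℝ, 0 ≤ l → l ≤ 1 →
      volume K ^ (1 - l) * volume L ^ l ≤
        volume (wulff fun u => supp K u ^ (1 - l) * supp L u ^ l) :=
  fun _ hn _ _ hK cK iK sK hL cL iL sL _ h0 h1 =>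
    logBM (le_trans (by norm_num) hn) hK cK iK sK hL cL iL sL h0 h1

end Vale.Agent.Results.P227.Main
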